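import Vale.Agent.P331.H787.FJ

/-!
# Row A6c
-/

set_option autoImplicit false
set_option linter.unusedSectionVars false

namespace Vale.Agent.P331.H787

open Finset Vale.Agent.P331.H489 Vale.Agent.P331.H250 Vale.Agent.P331.F

section

variable {E : Type*} [Fintype E] [DecidableEq E]

/-- a thinning of a thinning, and the rest -/
theorem TH_split (S : Finset E) {c g r q : ℝ} (hr : c * g = r) (hq : (1 - r) * q = c * (1 - g))
    (hr1 : 1 - r ≠ 0) (f : Finset E → Finset E → ℝ) :
    TH (fun _ => c) S (fun R => TH (fun _ => g) R (fun G => f (R \ G) G)) =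
      TH (fun _ => r) S (fun G => TH (fun _ => q) (S \ G) (fun R => f R G)) := by
  have h1 := TH_compl (fun _ => 1 - c) S (fun R => TH (fun _ => g) R (fun G => f (R \ G) G))
  simp only [sub_sub_cancel] at h1
  rw [← h1, TH_TH_swap (fun _ => 1 - c) (fun _ => g) (fun _ => r) (fun _ => (1 - c) / (1 - r)) S
    (fun _ _ => by rw [sub_sub_cancel]; exact hr) (fun _ _ => by field_simp)
    (fun W G => f ((S \ W) \ G) G)]
  congr 1
  funext G
  have h2 : (fun W : Finset E => f ((S \ W) \ G) G) = fun W => f ((S \ G) \ W) G := by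
    funext W
    congr 1
    ext e
    simp only [mem_sdiff]
    tauto
  rw [h2, TH_compl (fun _ => (1 - c) / (1 - r)) (S \ G) (fun R => f R G)]
  have h3 : 1 - (1 - c) / (1 - r) = q := by
    have h4 : (1 - r) * (1 - (1 - c) / (1 - r)) = (1 - r) * q := by
      rw [hq, mul_sub, mul_one, mul_div_cancel₀ _ hr1, ← hr]
      ring
    exact mul_left_cancel₀ hr1 h4
  simp only [h3]

end

theorem rowC : RowC := by
  intro p g n lam hp0 hp1 hg0 hgn hn1 hlam hQJ E _ D hD k d a hd ha
  classical
  have hn0 : 0 < n := by linarith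
  have h1g : 0 < 1 - g := by linarith
  have h2g : 0 < 1 - 2 * g := by linarith
  set b : ℝ := (1 - p) * g with hb
  have hb0 : 0 < b := mul_pos (by linarith) hg0
  have hbg : b ≤ g := by rw [hb]; nlinarith
  have hb1 : 0 < 1 - b := by linarith
  have hg' : 0 ≤ g / (1 - g) := div_nonneg hg0.le h1g.le
  have hg'1 : g / (1 - g) ≤ 1 := by rw [div_le_one h1g]; linarith
  set c : ℝ := (1 - p) * (1 - g) / (1 - b) with hc
  have hc0 : 0 ≤ c := div_nonneg (mul_nonneg (by linarith) h1g.le) hb1.le
  have hc1 : c ≤ 1 := by rw [hc, div_le_one hb1, hb]; nlinarith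
  -- the inner event
  let B : Finset E → Finset E → Finset E → Prop := fun X R G =>
    (∃ Y, Y ⊆ X ∧ Y.card ≤ k ∧ fl D (n / (1 - 2 * g)) (Y ∪ G) R ≤ d) ∧
      a < fl D ((n - g) / (1 - 2 * g)) (X ∪ G) R
  have h1 : a * TH (fun _ => b) univ (fun X => TH (fun _ => c) (univ \ X) (fun R =>
      pr (FF D k (g / (1 - g)) (n / (1 - 2 * g)) d a R X ∧
        ¬ fl D (n / (1 - g)) X R ≤ 3 * a))) ≤
      TH (fun _ => b) univ (fun X => TH (fun _ => c) (univ \ X) (fun R =>
        TH (fun _ => g / (1 - g)) R (fun G => pr (B X (R \ G) G)))) := by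
    rw [← TH_mul]
    refine TH_mono (fun _ => hb0.le) (fun _ => by linarith) _ fun X _ => ?_
    rw [← TH_mul]
    refine TH_mono (fun _ => hc0) (fun _ => hc1) _ fun R _ => ?_
    by_cases h : FF D k (g / (1 - g)) (n / (1 - 2 * g)) d a R X ∧
        ¬ fl D (n / (1 - g)) X R ≤ 3 * a
    · rw [pr_pos h, mul_one]
      exact next D k hg0.le (by linarith) (by linarith) (by linarith) R X h.1 (not_le.1 h.2)
    · rw [pr_neg h, mul_zero]
      exact TH_nonneg (fun _ => hg') (fun _ => hg'1) _ fun _ _ => pr_nonneg _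
  -- reordering
  set v : ℝ := b / (1 - b) with hv
  set rho : ℝ := (1 - p) * (1 - 2 * g) / (1 - b) with hrho
  have hv1 : 0 < 1 - v := by
    rw [hv, sub_pos, div_lt_one hb1]
    linarith
  have hcg : c * (g / (1 - g)) = v := by
    rw [hc, hv, hb]
    field_simp
  have hcg2 : (1 - v) * (rho / (1 - v)) = c * (1 - g / (1 - g)) := by
    rw [mul_div_cancel₀ _ hv1.ne', rate0 h1g, hc, hrho]
    field_simp
  have h2 : TH (fun _ => b) univ (fun X => TH (fun _ => c) (univ \ X) (fun R =>
        TH (fun _ => g / (1 - g)) R (fun G => pr (B X (R \ G) G)))) =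
      TH (fun _ => b) univ (fun G => TH (fun _ => v) (univ \ G) (fun X =>
        TH (fun _ => rho / (1 - v)) ((univ \ G) \ X) (fun R => pr (B X R G)))) := by
    have s1 : ∀ X : Finset E, TH (fun _ => c) (univ \ X) (fun R =>
        TH (fun _ => g / (1 - g)) R (fun G => pr (B X (R \ G) G))) =
        TH (fun _ => v) (univ \ X) (fun G => TH (fun _ => rho / (1 - v)) ((univ \ X) \ G)
          (fun R => pr (B X R G))) := fun X =>
      TH_split (univ \ X) hcg hcg2 hv1.ne' (fun R G => pr (B X R G))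
    simp only [s1]
    rw [TH_TH_swap (fun _ => b) (fun _ => v) (fun _ => b) (fun _ => v) univ
      (fun _ _ => by rw [hv]; field_simp) (fun _ _ => by rw [hv]; field_simp)
      (fun X G => TH (fun _ => rho / (1 - v)) ((univ \ X) \ G) (fun R => pr (B X R G)))]
    have s2 : ∀ X G : Finset E, (univ \ X) \ G = (univ \ G) \ X := by
      intro X G; ext e; simp only [mem_sdiff]; tauto
    simp only [s2]
  have hv0 : 0 ≤ v := div_nonneg hb0.le hb1.le
  have hrho0 : 0 < rho := div_pos (mul_pos (by linarith) h2g) hb1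
  have h3 : ∀ G : Finset E, TH (fun _ => v) (univ \ G) (fun X =>
        TH (fun _ => rho / (1 - v)) ((univ \ G) \ X) (fun R => pr (B X R G))) ≤
      (lam ^ k * d) ^ 7 / a ^ 16 := by
    intro G
    have hq := hQJ E (fun A => D (A ∪ G)) (fun A A' h hA => hD _ _ (union_subset_union h subset_rfl) hA)
      (univ \ G) v rho hrho0 (by
        have h6 : (1 - p) * (1 - 2 * g) / (1 - b) * (g / n) * (n / (1 - 2 * g)) =
            ((1 - p) * g / (1 - b)) * ((1 - 2 * g) / (1 - 2 * g)) * (n / n) := by ring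
        rw [hv, hrho, h6, div_self h2g.ne', div_self hn0.ne', ← hb]
        ring)
      (by
        have : v + rho = (1 - p) * (1 - g) / (1 - b) := by
          rw [hv, hrho, ← add_div, hb]
          congr 1
          ring
        rw [this]
        exact hc1) k d a hd ha
    have e1 : ∀ X R : Finset E, B X R G ↔ ((∃ Y ⊆ X, Y.card ≤ k ∧
        Th (n / (1 - 2 * g)) R (fun N => F.ind (¬ D ((Y ∪ N) ∪ G))) ≤ d) ∧
        a < Th (n / (1 - 2 * g) * (1 - g / n)) R (fun N => F.ind (¬ D ((X ∪ N) ∪ G)))) := by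
      intro X R
      have e2 : n / (1 - 2 * g) * (1 - g / n) = (n - g) / (1 - 2 * g) := by
        field_simp
      have e3 : ∀ Y N : Finset E, (Y ∪ N) ∪ G = (Y ∪ G) ∪ N := fun Y N =>
        union_right_comm _ _ _
      rw [e2]
      simp only [e3]
      exact Iff.rfl
    have e4 : TH (fun _ => v) (univ \ G) (fun X =>
        TH (fun _ => rho / (1 - v)) ((univ \ G) \ X) (fun R => pr (B X R G))) =
        Th v (univ \ G) (fun X => Th (rho / (1 - v)) ((univ \ G) \ X) (fun R =>
          F.ind ((∃ Y ⊆ X, Y.card ≤ k ∧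
        Th (n / (1 - 2 * g)) R (fun N => F.ind (¬ D ((Y ∪ N) ∪ G))) ≤ d) ∧
        a < Th (n / (1 - 2 * g) * (1 - g / n)) R (fun N => F.ind (¬ D ((X ∪ N) ∪ G)))))) := by
      unfold Th
      congr 1
      funext X
      congr 1
      funext R
      exact congrArg pr (propext (e1 X R))
    rw [e4]
    exact hq
  have h4 : a * TH (fun _ => b) univ (fun X => TH (fun _ => c) (univ \ X) (fun R =>
      pr (FF D k (g / (1 - g)) (n / (1 - 2 * g)) d a R X ∧
        ¬ fl D (n / (1 - g)) X R ≤ 3 * a))) ≤ (lam ^ k * d) ^ 7 / a ^ 16 := by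
    refine h1.trans ?_
    rw [h2]
    have := TH_mono (r := fun _ => b) (fun _ => hb0.le) (fun _ => by linarith) (univ : Finset E)
      (fun G _ => h3 G)
    rwa [TH_const] at this
  have h5 : TH (fun _ => b) univ (fun X => TH (fun _ => c) (univ \ X) (fun R =>
      pr (FF D k (g / (1 - g)) (n / (1 - 2 * g)) d a R X ∧
        ¬ fl D (n / (1 - g)) X R ≤ 3 * a))) ≤ (lam ^ k * d) ^ 7 / a ^ 17 := by
    rw [pow_succ a 16, ← div_div, le_div_iff₀ ha, mul_comm]
    exact h4
  exact h5

end Vale.Agent.P331.H787
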