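import Vale.Agent.P331.H787.LemL
import Vale.Agent.P331.F.Rows

/-!
# Row A6b
-/

set_option autoImplicit false
set_option linter.unusedSectionVars false

namespace Vale.Agent.P331.H787

open Finset Vale.Agent.P331.H489 Vale.Agent.P331.H250 Vale.Agent.P331.F

section

variable {E : Type*} [Fintype E] [DecidableEq E]

private theorem sum_ob' (f : Option Bool → ℝ) :
    ∑ l, f l = f none + f (some true) + f (some false) := by
  rw [Fintype.sum_option, Fintype.sum_bool]; ring

/-- (b) the change of labels -/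
theorem jstepG (A : Finset E) {p b lam : ℝ} (hp : 0 ≤ p) (hb : 0 ≤ b) (hpb : p + b ≤ 1)
    (hlam : 1 ≤ lam) (hl : lam * p ≤ b) (K : Finset E → Finset E → Finset E)
    (Ev : Finset E → Finset E → Prop) (F : Finset E → Finset E → Prop)
    (hFm : ∀ R X X', X ⊆ X' → F R X → F R X')
    (hK : ∀ V G, Ev V G → K V G ⊆ V ∧ F ((A \ V) \ G) (K V G)) (k : ℕ)
    (psi : Finset E → Finset E → ℝ) (hpsi0 : ∀ X R, 0 ≤ psi X R)
    (hpsi : ∀ V G U, Ev V G → U ⊆ K V G → U.card ≤ k → F ((A \ V) \ G) (G ∪ U) →
      1 ≤ psi (G ∪ U) ((A \ V) \ G)) :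
    T2 (fun _ => p) (fun _ => b) A (fun V G => pr (Ev V G)) ≤
      1 / lam ^ (k + 1) + T2 (fun _ => p) (fun _ => b) A (fun V G =>
        pr (F ((A \ V) \ G) G) * psi G ((A \ V) \ G)) := by
  classical
  have hw : ∀ e l, 0 ≤ bw2 (fun _ => p) (fun _ => b) A e l := by
    intro e l
    unfold bw2
    split_ifs <;> first | exact hp | exact hb | exact zero_le_one | exact le_rfl | linarith
  have hw1 : ∀ e, ∑ l, bw2 (fun _ => p) (fun _ => b) A e l = 1 := by
    intro e
    rw [sum_ob']
    by_cases he : e ∈ A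
    · simp only [bw2, he, if_true, reduceCtorEq, if_false, Option.some.injEq, Bool.false_eq_true]
      ring
    · simp [bw2, he]
  have hwl : ∀ e, lam * bw2 (fun _ => p) (fun _ => b) A e (some true) ≤
      bw2 (fun _ => p) (fun _ => b) A e (some false) := by
    intro e
    by_cases he : e ∈ A
    · simpa [bw2, he] using hl
    · simp [bw2, he]
  have hR : ∀ ω ω' : E → Option Bool, H379.Sim (some true) (some false) ω ω' →
      (A \ lset (some true) ω) \ lset (some false) ω =
        (A \ lset (some true) ω') \ lset (some false) ω' := by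
    intro ω ω' H
    ext e
    simp only [mem_sdiff, mem_lset]
    rcases H e with h | ⟨h1, h2⟩
    · rw [h]
    · rcases h1 with h1 | h1 <;> rcases h2 with h2 | h2 <;> simp [h1, h2]
  obtain ⟨U, h1, h2, h3⟩ := H379.jstar_label' (some true) (some false) (by simp)
    (bw2 (fun _ => p) (fun _ => b) A) hw lam hlam hwl
    (fun ω X => F ((A \ lset (some true) ω) \ lset (some false) ω) X)
    (fun ω X X' h hX => hFm _ X X' h hX)
    (fun ω ω' H X hX => by rw [← hR ω ω' H]; exact hX)
    (fun ω => Ev (lset (some true) ω) (lset (some false) ω))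
    (fun ω => K (lset (some true) ω) (lset (some false) ω))
    (fun ω hE => ⟨fun e he => mem_lset.1 ((hK _ _ hE).1 he), (hK _ _ hE).2⟩)
  let ps : (E → Option Bool) → ℝ := fun ω =>
    psi (lset (some false) ω) ((A \ lset (some true) ω) \ lset (some false) ω)
  have h4 := h2 ps (fun ω => hpsi0 _ _)
  have h5 := h3 (k + 1) hw1
  have hfl : ∀ ω : E → Option Bool, Ev (lset (some true) ω) (lset (some false) ω) →
      lset (some false) (H379.flip (some false) (U ω) ω) = lset (some false) ω ∪ U ω ∧
      (A \ lset (some true) (H379.flip (some false) (U ω) ω)) \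
        lset (some false) (H379.flip (some false) (U ω) ω) =
        (A \ lset (some true) ω) \ lset (some false) ω := by
    intro ω hE
    refine ⟨H379.lab_flip, ?_⟩
    have hU : ∀ e ∈ U ω, ω e = some true := fun e he =>
      mem_lset.1 ((hK _ _ hE).1 ((h1 ω hE).1 he))
    exact (hR _ _ (H379.sim_flip hU)).symm
  have h6 : T2 (fun _ => p) (fun _ => b) A (fun V G => pr (Ev V G)) ≤
      EX (bw2 (fun _ => p) (fun _ => b) A) (fun ω =>
        (if Ev (lset (some true) ω) (lset (some false) ω) ∧ k + 1 ≤ (U ω).card then 1 else 0) +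
        (if Ev (lset (some true) ω) (lset (some false) ω) then
          ps (H379.flip (some false) (U ω) ω) else 0)) := by
    unfold T2
    refine EX_mono hw fun ω => ?_
    beta_reduce
    by_cases hE : Ev (lset (some true) ω) (lset (some false) ω)
    · rw [pr_pos hE, if_pos hE]
      by_cases hc : k + 1 ≤ (U ω).card
      · rw [if_pos ⟨hE, hc⟩]
        exact le_add_of_nonneg_right (hpsi0 _ _)
      · rw [if_neg (fun h => hc h.2), zero_add]
        simp only [ps]
        rw [(hfl ω hE).2, (hfl ω hE).1]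
        exact hpsi _ _ _ hE (h1 ω hE).1 (by omega) (h1 ω hE).2
    · rw [pr_neg hE, if_neg (fun h => hE h.1), if_neg hE, add_zero]
  rw [EX_add] at h6
  have h7 : EX (bw2 (fun _ => p) (fun _ => b) A) (fun ω =>
        (if Ev (lset (some true) ω) (lset (some false) ω) ∧ k + 1 ≤ (U ω).card
          then (1 : ℝ) else 0)) ≤ 1 / lam ^ (k + 1) := by
    rw [le_div_iff₀ (pow_pos (lt_of_lt_of_le zero_lt_one hlam) _), mul_comm]
    exact h5
  have h8 : EX (bw2 (fun _ => p) (fun _ => b) A) (fun ω =>
      if F ((A \ lset (some true) ω) \ lset (some false) ω) (H379.lab (some false) ω)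
        then ps ω else 0) = T2 (fun _ => p) (fun _ => b) A (fun V G =>
        pr (F ((A \ V) \ G) G) * psi G ((A \ V) \ G)) := by
    unfold T2
    refine EX_congr (fun _ _ => rfl) fun ω => ?_
    beta_reduce
    by_cases hF : F ((A \ lset (some true) ω) \ lset (some false) ω) (lset (some false) ω)
    · rw [pr_pos hF, one_mul]
      exact if_pos hF
    · rw [pr_neg hF, zero_mul]
      exact if_neg hF
  rw [← h8]
  linarith


/-- the complement of a thinning -/
theorem TH_compl (r : E → ℝ) (S : Finset E) (f : Finset E → ℝ) :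
    TH r S (fun V => f (S \ V)) = TH (fun e => 1 - r e) S f := by
  rw [TH_eq_sum, TH_eq_sum]
  refine sum_nbij' (fun V => S \ V) (fun V => S \ V) ?_ ?_ ?_ ?_ ?_
  · intro V _
    exact mem_powerset.2 sdiff_subset
  · intro V _
    exact mem_powerset.2 sdiff_subset
  · intro V hV
    exact _root_.sdiff_sdiff_eq_self (mem_powerset.1 hV)
  · intro V hV
    exact _root_.sdiff_sdiff_eq_self (mem_powerset.1 hV)
  · intro V hV
    rw [_root_.sdiff_sdiff_eq_self (mem_powerset.1 hV)]
    simp only [sub_sub_cancel]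
    ring

theorem T2_compl (A : Finset E) {p b c p' : ℝ} (hp' : (1 - b) * p' = p) (hc : 1 - p' = c)
    (f : Finset E → Finset E → ℝ) :
    T2 (fun _ => p) (fun _ => b) A (fun V G => f G ((A \ V) \ G)) =
      TH (fun _ => b) A (fun X => TH (fun _ => c) (A \ X) (fun R => f X R)) := by
  rw [T2_swap, ← T2_congr_rates (a := fun _ => b) (b := fun _ => (1 - b) * p') (fun _ _ => rfl)
    (fun _ _ => hp'), ← TH_TH (fun _ => b) (fun _ => p') A (fun N G => f N ((A \ G) \ N))]
  congr 1
  funext X
  have h1 : (fun G : Finset E => f X ((A \ G) \ X)) = fun G => f X ((A \ X) \ G) := by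
    funext G
    congr 1
    ext e
    simp only [mem_sdiff]
    tauto
  rw [h1, TH_compl (fun _ => p') (A \ X) (fun R => f X R)]
  simp only [hc]

end

theorem rowJ : RowJ := by
  intro E _ Fm Hp hFm p g k hp0 hp1 hg0 hg1 hpg
  classical
  set b : ℝ := (1 - p) * g with hb
  have hb0 : 0 < b := mul_pos (by linarith) hg0
  have hpb : p + b ≤ 1 := by rw [hb]; nlinarith
  have hb1 : 0 < 1 - b := by linarith
  let Ev : Finset E → Finset E → Prop := fun V G => ∃ K ⊆ V, Fm ((univ \ V) \ G) K ∧
      ∀ U' ⊆ K, U'.card ≤ k → ¬ Hp ((univ \ V) \ G) (U' ∪ G)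
  let K : Finset E → Finset E → Finset E := fun V G => if h : Ev V G then h.choose else ∅
  have hKs : ∀ V G, Ev V G → K V G ⊆ V ∧ Fm ((univ \ V) \ G) (K V G) ∧
      ∀ U' ⊆ K V G, U'.card ≤ k → ¬ Hp ((univ \ V) \ G) (U' ∪ G) := by
    intro V G h
    have : K V G = h.choose := dif_pos h
    rw [this]
    exact h.choose_spec
  have hJ := jstepG (E := E) univ hp0.le hb0.le hpb (lam := b / p)
    ((one_le_div hp0).2 hpg) (by rw [div_mul_cancel₀ _ hp0.ne']) K Ev Fm hFm
    (fun V G h => ⟨(hKs V G h).1, (hKs V G h).2.1⟩) k (fun X R => pr (¬ Hp R X))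
    (fun _ _ => pr_nonneg _) (by
      intro V G U hE hU hk _
      have := (hKs V G hE).2.2 U hU hk
      rw [union_comm]
      exact (pr_pos this).ge)
  have e1 : T2 (fun _ => p) (fun _ => b) univ (fun V G => pr (Ev V G)) =
      TH (fun _ => p) univ (fun V => TH (fun _ => g) (univ \ V) (fun G => pr (Ev V G))) := by
    rw [hb, T2_nest]
  have e2 : T2 (fun _ => p) (fun _ => b) univ (fun V G =>
      pr (Fm ((univ \ V) \ G) G) * pr (¬ Hp ((univ \ V) \ G) G)) =
      TH (fun _ => b) univ (fun X => TH (fun _ => (1 - p) * (1 - g) / (1 - b)) (univ \ X)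
        (fun R => pr (Fm R X ∧ ¬ Hp R X))) := by
    rw [T2_compl univ (p' := p / (1 - b)) (c := (1 - p) * (1 - g) / (1 - b))
      (by field_simp) (by rw [eq_div_iff hb1.ne', sub_mul, div_mul_cancel₀ _ hb1.ne', hb]; ring)
      (fun G R => pr (Fm R G) * pr (¬ Hp R G))]
    congr 1
    funext X
    congr 1
    funext R
    by_cases h1 : Fm R X
    · by_cases h2 : Hp R X
      · rw [pr_neg (not_not.2 h2), mul_zero, pr_neg (fun h => h.2 h2)]
      · have h3 : pr (Fm R X ∧ ¬ Hp R X) = 1 := pr_pos ⟨h1, h2⟩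
        rw [pr_pos h1, pr_pos h2, h3, one_mul]
    · rw [pr_neg h1, zero_mul, pr_neg (fun h => h1 h.1)]
  rw [e1, e2] at hJ
  have e3 : 1 / (b / p) ^ (k + 1) = (p / b) ^ (k + 1) := by
    rw [one_div, ← inv_pow, inv_div]
  rw [e3] at hJ
  exact hJ

end Vale.Agent.P331.H787
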