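import Vale.Agent.P331.H787.LemL
import Vale.Agent.P331.F.Rows

/-!
# Row A6a
-/

set_option autoImplicit false
set_option linter.unusedSectionVars false

namespace Vale.Agent.P331.H787

open Finset Vale.Agent.P331.H489 Vale.Agent.P331.H250 Vale.Agent.P331.F

theorem rowTr : RowTr := by
  intro E _ D S X g n k d τ a T hg hg1 hn hn1 hd ha hT hX
  classical
  have h := transfer D k hg.le (by linarith : 2 * g < 1) hn (by linarith : n ≤ 1 - 2 * g)
    (fun _ => d) (al0 := d) (al1 := T * d) (t := τ) (a := a) (fun _ _ => le_rfl)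
    (mul_pos hT hd) hd.le S X hX
  rw [le_div_iff₀ ha, mul_comm]
  have e : d / (T * d) = 1 / T := by
    field_simp
  rw [e] at h
  exact h

end Vale.Agent.P331.H787
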