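import Vale.Agent.P331.H787.FC
import Vale.Agent.P331.H787.FTr

/-!
# Row A6d
-/

set_option autoImplicit false
set_option linter.unusedSectionVars false

namespace Vale.Agent.P331.H787

open Finset Vale.Agent.P331.H489 Vale.Agent.P331.H250 Vale.Agent.P331.F

theorem xx_succ (B i : ℕ) : xx B (i + 1) = xx B i ^ 200 := by
  unfold xx
  rw [← pow_mul, pow_succ]

theorem le_xx {B : ℕ} (_ : 16 ≤ B) (i : ℕ) : B ≤ xx B i := by
  unfold xx
  exact Nat.le_self_pow (pow_ne_zero _ (by norm_num)) B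

theorem pow_le_xx {B : ℕ} (hB : 16 ≤ B) (i : ℕ) : 200 ^ i ≤ xx B i := by
  unfold xx
  exact (Nat.lt_two_pow_self).le.trans (Nat.pow_le_pow_left (by omega) _)

theorem cst_num {p g n lam : ℝ} {B : ℕ} (hC : Cst p g n lam B) (i : ℕ) :
    (p / ((1 - p) * g)) ^ (200 ^ i) ≤ ((xx B (i + 1) : ℝ) ^ 120)⁻¹ := by
  have hp1 : p ≤ 1 / 4 := hC.p1
  have hb : 0 < (1 - p) * g := mul_pos (by linarith) hC.g0
  have hB0 : (0 : ℝ) < (B : ℝ) := by
    have : (16 : ℝ) ≤ (B : ℝ) := by exact_mod_cast hC.B16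
    linarith
  have h1 : p / ((1 - p) * g) ≤ ((B : ℝ) ^ 24000)⁻¹ := by
    rw [← inv_div]
    exact inv_anti₀ (pow_pos hB0 _) hC.lam0
  refine (pow_le_pow_left₀ (div_nonneg hC.p0.le hb.le) h1 _).trans (le_of_eq ?_)
  rw [xx_succ, inv_pow]
  congr 1
  unfold xx
  push_cast
  rw [← pow_mul, ← pow_mul, ← pow_mul]
  congr 1
  ring

theorem cst_num2 {p g n lam : ℝ} {B : ℕ} (hC : Cst p g n lam B) (i : ℕ) :
    (lam ^ (200 ^ (i + 1) - 1) * ((xx B (i + 1) : ℝ) * ((xx B (i + 1) : ℝ) ^ 20)⁻¹)) ^ 7 /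
      (((xx B i : ℝ) ^ 23)⁻¹) ^ 17 ≤ ((xx B (i + 1) : ℝ) ^ 124)⁻¹ := by
  have hB : (16 : ℝ) ≤ (B : ℝ) := by exact_mod_cast hC.B16
  have hy : (16 : ℝ) ≤ (xx B i : ℝ) := by
    exact_mod_cast hC.B16.trans (le_xx hC.B16 i)
  have hx : (xx B (i + 1) : ℝ) = (xx B i : ℝ) ^ 200 := by
    rw [xx_succ]; push_cast; rfl
  have hl : lam ^ (200 ^ (i + 1) - 1) ≤ (xx B (i + 1) : ℝ) := by
    refine (pow_le_pow_left₀ (zero_le_one.trans hC.lam1) hC.lamB _).trans ?_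
    unfold xx
    push_cast
    exact pow_le_pow_right₀ (by linarith) (Nat.sub_le _ _)
  set x : ℝ := (xx B (i + 1) : ℝ) with hxd
  set y : ℝ := (xx B i : ℝ) with hyd
  have hy0 : 0 < y := by linarith
  have hx0 : 0 < x := by rw [hx]; exact pow_pos hy0 _
  have h1 : lam ^ (200 ^ (i + 1) - 1) * (x * (x ^ 20)⁻¹) ≤ (x ^ 18)⁻¹ := by
    calc lam ^ (200 ^ (i + 1) - 1) * (x * (x ^ 20)⁻¹) ≤ x * (x * (x ^ 20)⁻¹) :=
          mul_le_mul_of_nonneg_right hl (by positivity)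
      _ = (x ^ 18)⁻¹ := by field_simp
  have h2 : (lam ^ (200 ^ (i + 1) - 1) * (x * (x ^ 20)⁻¹)) ^ 7 ≤ ((x ^ 18)⁻¹) ^ 7 := by
    refine pow_le_pow_left₀ ?_ h1 7
    have := pow_nonneg (zero_le_one.trans hC.lam1) (200 ^ (i + 1) - 1)
    positivity
  have h3 : ((y ^ 23)⁻¹) ^ 17 = (y ^ 391)⁻¹ := by
    rw [inv_pow, ← pow_mul]
  have h4 : ((x ^ 18)⁻¹) ^ 7 = (x ^ 126)⁻¹ := by
    rw [inv_pow, ← pow_mul]
  rw [h3, div_inv_eq_mul]
  calc (lam ^ (200 ^ (i + 1) - 1) * (x * (x ^ 20)⁻¹)) ^ 7 * y ^ 391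
      ≤ (x ^ 126)⁻¹ * x ^ 2 := by
        rw [← h4]
        refine mul_le_mul h2 ?_ (by positivity) (by positivity)
        rw [hx, ← pow_mul]
        exact pow_le_pow_right₀ (by linarith) (by norm_num)
    _ = (x ^ 124)⁻¹ := by field_simp

theorem num3 {x y : ℝ} (hy : 16 ≤ y) (hx : x = y ^ 200) :
    (x⁻¹ + 1 / x) / (y ^ 23)⁻¹ ≤ (y ^ 163)⁻¹ / 2 := by
  have hy0 : 0 < y := by linarith
  have h1 : (4 : ℝ) ≤ y ^ 14 := by
    have : (1 : ℝ) ≤ y ^ 13 := one_le_pow₀ (by linarith)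
    nlinarith [pow_succ y 13]
  have e : (x⁻¹ + 1 / x) / (y ^ 23)⁻¹ = 2 * (y ^ 177)⁻¹ := by
    rw [hx]
    field_simp
    ring
  rw [e]
  have e2 : (y ^ 163)⁻¹ = y ^ 14 * (y ^ 177)⁻¹ := by field_simp
  rw [e2]
  have : 0 < (y ^ 177)⁻¹ := by positivity
  nlinarith

theorem num4 {x y P : ℝ} (hy : 16 ≤ y) (hx : x = y ^ 200)
    (h : (y ^ 163)⁻¹ / 2 * P ≤ (x ^ 120)⁻¹ + (x ^ 124)⁻¹) : P ≤ (x ^ 119)⁻¹ := by
  have hy0 : 0 < y := by linarith
  have hx1 : 1 ≤ x := by rw [hx]; exact one_le_pow₀ (by linarith)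
  have hx0 : 0 < x := by linarith
  have h1 : 4 * y ^ 163 ≤ x := by
    have : (4 : ℝ) ≤ y ^ 37 := by
      have : (1 : ℝ) ≤ y ^ 36 := one_le_pow₀ (by linarith)
      nlinarith [pow_succ y 36]
    have e : x = y ^ 37 * y ^ 163 := by rw [hx, ← pow_add]
    rw [e]
    exact mul_le_mul_of_nonneg_right this (by positivity)
  have h2 : (x ^ 124)⁻¹ ≤ (x ^ 120)⁻¹ :=
    inv_anti₀ (by positivity) (pow_le_pow_right₀ hx1 (by norm_num))
  have h3 : P ≤ 4 * y ^ 163 * (x ^ 120)⁻¹ := by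
    have h4 : (y ^ 163)⁻¹ / 2 * P ≤ 2 * (x ^ 120)⁻¹ := by linarith
    have h5 : P = (2 * y ^ 163) * ((y ^ 163)⁻¹ / 2 * P) := by field_simp
    rw [h5]
    calc (2 * y ^ 163) * ((y ^ 163)⁻¹ / 2 * P) ≤ (2 * y ^ 163) * (2 * (x ^ 120)⁻¹) :=
          mul_le_mul_of_nonneg_left h4 (by positivity)
      _ = _ := by ring
  calc P ≤ 4 * y ^ 163 * (x ^ 120)⁻¹ := h3
    _ ≤ x * (x ^ 120)⁻¹ := mul_le_mul_of_nonneg_right h1 (by positivity)
    _ = (x ^ 119)⁻¹ := by field_simp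

theorem rowL1 : RowL1 := by
  intro p g n lam B hC E _ D hD j hj
  obtain ⟨i, rfl⟩ : ∃ i, j = i + 1 := ⟨j - 1, by omega⟩
  rw [Nat.add_sub_cancel]
  classical
  have hp0 := hC.p0
  have hp1 := hC.p1
  have hg0 := hC.g0
  have hgn := hC.gn
  have hn0 := hC.n0
  have hn1 := hC.n1
  have hg1 : g ≤ 1 / 4 := by linarith
  have hy : (16 : ℝ) ≤ (xx B i : ℝ) := by
    exact_mod_cast hC.B16.trans (le_xx hC.B16 i)
  have hyn : ((200 : ℝ) ^ i) ≤ (xx B i : ℝ) := by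
    exact_mod_cast pow_le_xx hC.B16 i
  have hx : (xx B (i + 1) : ℝ) = (xx B i : ℝ) ^ 200 := by
    rw [xx_succ]; push_cast; rfl
  have N1 := cst_num hC i
  have N2 := cst_num2 hC i
  have hy0 : (0 : ℝ) < (xx B i : ℝ) := by linarith
  have hx0 : (0 : ℝ) < (xx B (i + 1) : ℝ) := by rw [hx]; exact pow_pos hy0 _
  set x : ℝ := (xx B (i + 1) : ℝ) with hxd
  set y : ℝ := (xx B i : ℝ) with hyd
  have ha : 0 < (y ^ 23)⁻¹ := by positivity
  have hd : 0 < (x ^ 20)⁻¹ := by positivity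
  let Fm : Finset E → Finset E → Prop := fun R A =>
    Fam (g / (1 - g)) (n / (1 - 2 * g)) (y ^ 23)⁻¹ (200 ^ (i + 1) - 1) (x * (x ^ 20)⁻¹) D R A
  let Hp : Finset E → Finset E → Prop := fun R X =>
    Th (n / (1 - g)) R (fun N => F.ind (¬ D (X ∪ N))) ≤ 3 * (y ^ 23)⁻¹
  have h1g : 0 < 1 - g := by linarith
  have hg' : 0 ≤ g / (1 - g) := div_nonneg hg0.le h1g.le
  have hg'1 : g / (1 - g) ≤ 1 := by rw [div_le_one h1g]; linarith
  have hJ := rowJ E Fm Hp (fun R A A' h hA => FF_mono hg' hg'1 h hA) p g (200 ^ i - 1) hp0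
    (by linarith) hg0 (by linarith) (by
      have h2 : (1 : ℝ) ≤ (B : ℝ) ^ 24000 := one_le_pow₀ (by
        have : (16 : ℝ) ≤ (B : ℝ) := by exact_mod_cast hC.B16
        linarith)
      have h3 := h2.trans hC.lam0
      rwa [one_le_div hp0] at h3)
  have hCC := rowC p g n lam hp0 hp1 hg0 hgn hn1 hC.lam1 hC.qj E D hD (200 ^ (i + 1) - 1)
    (x * (x ^ 20)⁻¹) (y ^ 23)⁻¹ (by positivity) ha
  have e1 : 200 ^ i - 1 + 1 = 200 ^ i := Nat.sub_add_cancel (Nat.one_le_pow _ _ (by norm_num))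
  rw [e1] at hJ
  -- the lower bound
  have hlow : (y ^ 163)⁻¹ / 2 * Th p univ (fun V => F.ind (∃ X ⊆ V,
      ff g (n / (1 - g)) (lev B (i + 1)) D (univ \ V) X ≤ (lev B (i + 1)).τ ∧
      (y ^ 163)⁻¹ ≤ Th g (univ \ V) (fun G =>
        F.ind (¬ ∃ Y ⊆ X, good (n / (1 - g)) (lev B i) D (univ \ V) G Y)))) ≤
      Th p univ (fun V => Th g (univ \ V) (fun G => F.ind (∃ K ⊆ V, Fm ((univ \ V) \ G) K ∧
        ∀ U' ⊆ K, U'.card ≤ 200 ^ i - 1 → ¬ Hp ((univ \ V) \ G) (U' ∪ G)))) := by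
    unfold Th
    rw [← TH_mul]
    refine TH_mono (fun _ => hp0.le) (fun _ => by linarith) _ fun V _ => ?_
    by_cases hX : ∃ X ⊆ V,
      ff g (n / (1 - g)) (lev B (i + 1)) D (univ \ V) X ≤ (lev B (i + 1)).τ ∧
      (y ^ 163)⁻¹ ≤ TH (fun _ => g) (univ \ V) (fun G =>
        F.ind (¬ ∃ Y ⊆ X, good (n / (1 - g)) (lev B i) D (univ \ V) G Y))
    · have e2 : F.ind (∃ X ⊆ V,
          ff g (n / (1 - g)) (lev B (i + 1)) D (univ \ V) X ≤ (lev B (i + 1)).τ ∧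
          (y ^ 163)⁻¹ ≤ TH (fun _ => g) (univ \ V) (fun G =>
            F.ind (¬ ∃ Y ⊆ X, good (n / (1 - g)) (lev B i) D (univ \ V) G Y))) = 1 :=
        pr_pos hX
      rw [e2, mul_one]
      obtain ⟨X, hXV, hX1, hX2⟩ := hX
      have c1 := rowTr E D (univ \ V) X g n (200 ^ (i + 1) - 1) (x ^ 20)⁻¹ x⁻¹ (y ^ 23)⁻¹ x hg0
        hg1 hn0.le (by linarith) hd ha hx0 (by
          refine le_trans ?_ hX1
          unfold ff Th
          refine TH_mono (fun _ => hg0.le) (fun _ => by linarith) _ fun G _ => ?_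
          refine pr_mono fun hn hy' => hn ?_
          obtain ⟨Y, hY1, hY2, hY3⟩ := hy'
          refine ⟨Y, hY1, hY2, hY3.trans ?_⟩
          exact div_le_self hd.le (by
            have : (0 : ℝ) ≤ (Y.card : ℝ) := Nat.cast_nonneg _
            linarith))
      have c2 := c1.trans (num3 hy hx)
      have c3 : TH (fun _ => g) (univ \ V) (fun G =>
          F.ind (¬ ∃ Y ⊆ X, good (n / (1 - g)) (lev B i) D (univ \ V) G Y)) ≤
          TH (fun _ => g) (univ \ V) (fun G => F.ind (∃ K ⊆ V, Fm ((univ \ V) \ G) K ∧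
            ∀ U' ⊆ K, U'.card ≤ 200 ^ i - 1 → ¬ Hp ((univ \ V) \ G) (U' ∪ G)) +
            F.ind (¬ Fam (g / (1 - g)) (n / (1 - 2 * g)) (y ^ 23)⁻¹ (200 ^ (i + 1) - 1)
              (x * (x ^ 20)⁻¹) D ((univ \ V) \ G) X)) := by
        refine TH_mono (fun _ => hg0.le) (fun _ => by linarith) _ fun G _ => ?_
        by_cases d1 : ∃ Y ⊆ X, good (n / (1 - g)) (lev B i) D (univ \ V) G Y
        · have : F.ind (¬ ∃ Y ⊆ X, good (n / (1 - g)) (lev B i) D (univ \ V) G Y) = 0 :=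
            pr_neg (not_not.2 d1)
          rw [this]
          exact add_nonneg (pr_nonneg _) (pr_nonneg _)
        · by_cases d2 : Fam (g / (1 - g)) (n / (1 - 2 * g)) (y ^ 23)⁻¹ (200 ^ (i + 1) - 1)
              (x * (x ^ 20)⁻¹) D ((univ \ V) \ G) X
          · have d3 : F.ind (∃ K ⊆ V, Fm ((univ \ V) \ G) K ∧
                ∀ U' ⊆ K, U'.card ≤ 200 ^ i - 1 → ¬ Hp ((univ \ V) \ G) (U' ∪ G)) = 1 := by
              refine pr_pos ⟨X, hXV, d2, ?_⟩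
              intro U' hU hk hHp
              refine d1 ⟨U', hU, hk, ?_⟩
              refine hHp.trans ?_
              have e3 : (lev B i).δ = (y ^ 20)⁻¹ := rfl
              rw [e3, le_div_iff₀ (by positivity)]
              have h5 : ((U'.card : ℝ) + 1) ≤ y := by
                refine le_trans ?_ hyn
                have h6 : U'.card + 1 ≤ 200 ^ i := by omega
                exact_mod_cast h6
              have h7 : 3 * ((U'.card : ℝ) + 1) ≤ y ^ 3 := by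
                have h8 : y * y ≤ y ^ 3 := by nlinarith [pow_succ y 2, pow_two y]
                nlinarith
              calc 3 * (y ^ 23)⁻¹ * ((U'.card : ℝ) + 1) =
                    (3 * ((U'.card : ℝ) + 1)) * (y ^ 23)⁻¹ := by ring
                _ ≤ y ^ 3 * (y ^ 23)⁻¹ := mul_le_mul_of_nonneg_right h7 ha.le
                _ = (y ^ 20)⁻¹ := by field_simp
            rw [d3]
            have h9 := pr_le_one (¬ ∃ Y ⊆ X, good (n / (1 - g)) (lev B i) D (univ \ V) G Y)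
            have h10 := pr_nonneg (¬ Fam (g / (1 - g)) (n / (1 - 2 * g)) (y ^ 23)⁻¹
              (200 ^ (i + 1) - 1) (x * (x ^ 20)⁻¹) D ((univ \ V) \ G) X)
            exact h9.trans (le_add_of_nonneg_right h10)
          · have d3 : F.ind (¬ Fam (g / (1 - g)) (n / (1 - 2 * g)) (y ^ 23)⁻¹
              (200 ^ (i + 1) - 1) (x * (x ^ 20)⁻¹) D ((univ \ V) \ G) X) = 1 := pr_pos d2
            rw [d3]
            have h9 := pr_le_one (¬ ∃ Y ⊆ X, good (n / (1 - g)) (lev B i) D (univ \ V) G Y)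
            have h10 := pr_nonneg (∃ K ⊆ V, Fm ((univ \ V) \ G) K ∧
                ∀ U' ⊆ K, U'.card ≤ 200 ^ i - 1 → ¬ Hp ((univ \ V) \ G) (U' ∪ G))
            exact h9.trans (le_add_of_nonneg_left h10)
      rw [TH_add] at c3
      have c4 : TH (fun _ => g) (univ \ V) (fun G => F.ind (¬ Fam (g / (1 - g))
          (n / (1 - 2 * g)) (y ^ 23)⁻¹ (200 ^ (i + 1) - 1) (x * (x ^ 20)⁻¹) D
          ((univ \ V) \ G) X)) ≤ (y ^ 163)⁻¹ / 2 := c2
      linarith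
    · have e2 : F.ind (∃ X ⊆ V,
          ff g (n / (1 - g)) (lev B (i + 1)) D (univ \ V) X ≤ (lev B (i + 1)).τ ∧
          (y ^ 163)⁻¹ ≤ TH (fun _ => g) (univ \ V) (fun G =>
            F.ind (¬ ∃ Y ⊆ X, good (n / (1 - g)) (lev B i) D (univ \ V) G Y))) = 0 :=
        pr_neg hX
      rw [e2, mul_zero]
      exact TH_nonneg (fun _ => hg0.le) (fun _ => by linarith) _ fun _ _ => pr_nonneg _
  refine num4 hy hx (hlow.trans (hJ.trans ?_))
  exact add_le_add N1 (hCC.trans N2)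

end Vale.Agent.P331.H787
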