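import Vale.Agent.P331.H250.Ker
import Vale.Agent.P331.H379.JLabel

/-!
# One step of the chain (luck), over abstract thresholds

`TH p A (fun V => TH g (A \ V) ..)` : labels V (rate `p`), S = A \ V, pool G of S.
-/

set_option autoImplicit false
set_option linter.unusedSectionVars false

namespace Vale.Agent.P331.H787

open Finset Vale.Agent.P331.H489 Vale.Agent.P331.H250

variable {E : Type*} [Fintype E] [DecidableEq E]

open Classical in
/-- indicator -/
noncomputable def pr (P : Prop) : ℝ := if P then 1 else 0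

theorem pr_nonneg (P : Prop) : 0 ≤ pr P := by
  unfold pr
  split_ifs <;> norm_num

theorem pr_le_one (P : Prop) : pr P ≤ 1 := by
  unfold pr
  split_ifs <;> norm_num

theorem pr_pos {P : Prop} (h : P) : pr P = 1 := by
  unfold pr
  rw [if_pos h]

theorem pr_neg {P : Prop} (h : ¬ P) : pr P = 0 := by
  unfold pr
  rw [if_neg h]

theorem pr_mono {P Q : Prop} (h : P → Q) : pr P ≤ pr Q := by
  by_cases hP : P
  · rw [pr_pos hP, pr_pos (h hP)]
  · rw [pr_neg hP]
    exact pr_nonneg Q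

theorem rate0 {g : ℝ} (h1 : 0 < 1 - g) : 1 - g / (1 - g) = (1 - 2 * g) / (1 - g) := by
  have h1' := h1.ne'
  rw [eq_div_iff h1', sub_mul, div_mul_cancel₀ _ h1']
  ring

theorem rate1 {g n : ℝ} (h1 : 0 < 1 - g) (h2 : 0 < 1 - 2 * g) :
    (1 - g / (1 - g)) * (n / (1 - 2 * g)) = n / (1 - g) := by
  rw [rate0 h1, div_mul_div_comm, mul_comm (1 - g), mul_div_mul_left _ _ h2.ne']

theorem rate2 {g n : ℝ} (h1 : 0 < 1 - g) (h2 : 0 < 1 - 2 * g) :
    g / (1 - g) + (1 - g / (1 - g)) * ((n - g) / (1 - 2 * g)) = n / (1 - g) := by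
  rw [rate1 h1 h2, ← add_div]
  congr 1
  ring

/-- probability that `X` with the thinning of `S` at rate `n` misses `D` -/
noncomputable def fl (D : Finset E → Prop) (n : ℝ) (X S : Finset E) : ℝ :=
  TH (fun _ => n) S fun N => pr (¬ D (X ∪ N))

/-- some small subset of `X` is good at the pool `G` of `S` -/
def ex (D : Finset E → Prop) (k : ℕ) (n : ℝ) (al : ℕ → ℝ) (X G S : Finset E) : Prop :=
  ∃ Y, Y ⊆ X ∧ Y.card ≤ k ∧ fl D n (Y ∪ G) (S \ G) ≤ al Y.card

theorem ex_mono {D : Finset E → Prop} {k : ℕ} {n : ℝ} {al : ℕ → ℝ} {X X' G S : Finset E}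
    (h : X ⊆ X') (hX : ex D k n al X G S) : ex D k n al X' G S := by
  obtain ⟨Y, h1, h2⟩ := hX
  exact ⟨Y, h1.trans h, h2⟩

/-- with probability at least `1 - a` over the pool there is a good subset -/
def FF (D : Finset E → Prop) (k : ℕ) (g n al a : ℝ) (R X : Finset E) : Prop :=
  TH (fun _ => g) R (fun G => pr (¬ ex D k n (fun _ => al) X G R)) ≤ a

theorem FF_mono {D : Finset E → Prop} {k : ℕ} {g n al a : ℝ} (hg : 0 ≤ g) (hg1 : g ≤ 1)
    {R X X' : Finset E} (h : X ⊆ X') (hX : FF D k g n al a R X) : FF D k g n al a R X' :=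
  (TH_mono (fun _ => hg) (fun _ => hg1) R fun _ _ =>
    pr_mono fun hn hx => hn (ex_mono h hx)).trans hX

theorem fl_nonneg {D : Finset E → Prop} {n : ℝ} (h0 : 0 ≤ n) (h1 : n ≤ 1) (X S : Finset E) :
    0 ≤ fl D n X S :=
  TH_nonneg (fun _ => h0) (fun _ => h1) S fun _ _ => pr_nonneg _

/-- (a) transfer to `S \ G₂` -/
theorem transfer (D : Finset E → Prop) (k : ℕ) {g n : ℝ} (hg : 0 ≤ g) (hg2 : 2 * g < 1)
    (hn : 0 ≤ n) (hn1 : n ≤ 1 - 2 * g) (al : ℕ → ℝ) {al0 al1 t a : ℝ}
    (hal : ∀ i, i ≤ k → al i ≤ al0) (hal1 : 0 < al1) (h00 : 0 ≤ al0) (S X : Finset E)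
    (hX : TH (fun _ => g) S (fun G => pr (¬ ex D k (n / (1 - g)) al X G S)) ≤ t) :
    a * TH (fun _ => g) S (fun G₂ => pr (¬ FF D k (g / (1 - g)) (n / (1 - 2 * g)) al1 a
      (S \ G₂) X)) ≤ t + al0 / al1 := by
  have h1g : 0 < 1 - g := by linarith
  have h2g : 0 < 1 - 2 * g := by linarith
  have hg' : 0 ≤ g / (1 - g) := div_nonneg hg h1g.le
  have hg'1 : g / (1 - g) ≤ 1 := by rw [div_le_one h1g]; linarith
  have hg1 : g ≤ 1 := by linarith
  have hn' : 0 ≤ n / (1 - 2 * g) := div_nonneg hn h2g.le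
  have hn'1 : n / (1 - 2 * g) ≤ 1 := by rw [div_le_one h2g]; exact hn1
  let B : Finset E → Finset E → ℝ := fun G₂ G =>
    pr (¬ ex D k (n / (1 - 2 * g)) (fun _ => al1) X G (S \ G₂))
  have s1 : a * TH (fun _ => g) S (fun G₂ => pr (¬ FF D k (g / (1 - g)) (n / (1 - 2 * g)) al1 a
      (S \ G₂) X)) ≤ TH (fun _ => g) S (fun G₂ => TH (fun _ => g / (1 - g)) (S \ G₂)
      (fun G => B G₂ G)) := by
    rw [← TH_mul]
    refine TH_mono (fun _ => hg) (fun _ => hg1) S fun G₂ _ => ?_
    by_cases hF : FF D k (g / (1 - g)) (n / (1 - 2 * g)) al1 a (S \ G₂) X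
    · rw [pr_neg (not_not.2 hF), mul_zero]
      exact TH_nonneg (fun _ => hg') (fun _ => hg'1) _ fun _ _ => pr_nonneg _
    · rw [pr_pos hF, mul_one]
      exact (not_le.1 hF).le
  have s2 : TH (fun _ => g) S (fun G₂ => TH (fun _ => g / (1 - g)) (S \ G₂)
      (fun G => B G₂ G)) = TH (fun _ => g) S (fun G => TH (fun _ => g / (1 - g)) (S \ G)
      (fun G₂ => B G₂ G)) := by
    refine TH_TH_swap _ _ _ _ S (fun e _ => ?_) (fun e _ => ?_) (fun G₂ G => B G₂ G)
    · field_simp
    · field_simp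
  have s3 : TH (fun _ => g) S (fun G => TH (fun _ => g / (1 - g)) (S \ G)
      (fun G₂ => B G₂ G)) ≤ TH (fun _ => g) S (fun G =>
        pr (¬ ex D k (n / (1 - g)) al X G S) + al0 / al1) := by
    refine TH_mono (fun _ => hg) (fun _ => hg1) S fun G _ => ?_
    by_cases hx : ex D k (n / (1 - g)) al X G S
    · obtain ⟨Y, hYX, hYk, hY⟩ := hx
      have s4 : TH (fun _ => g / (1 - g)) (S \ G) (fun G₂ => B G₂ G) ≤
          TH (fun _ => g / (1 - g)) (S \ G) (fun G₂ =>
            (1 / al1) * fl D (n / (1 - 2 * g)) (Y ∪ G) ((S \ G) \ G₂)) := by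
        refine TH_mono (fun _ => hg') (fun _ => hg'1) _ fun G₂ _ => ?_
        have hcomm : (S \ G₂) \ G = (S \ G) \ G₂ := by
          ext e; simp only [mem_sdiff]; tauto
        by_cases h5 : fl D (n / (1 - 2 * g)) (Y ∪ G) ((S \ G) \ G₂) ≤ al1
        · have : B G₂ G = 0 := pr_neg (not_not.2 ⟨Y, hYX, hYk, by rw [hcomm]; exact h5⟩)
          rw [this]
          exact mul_nonneg (one_div_nonneg.2 hal1.le) (fl_nonneg hn' hn'1 _ _)
        · refine (pr_le_one _).trans ?_
          rw [one_div, ← div_eq_inv_mul, le_div_iff₀ hal1, one_mul]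
          exact (not_le.1 h5).le
      have s5 : TH (fun _ => g / (1 - g)) (S \ G) (fun G₂ =>
            (1 / al1) * fl D (n / (1 - 2 * g)) (Y ∪ G) ((S \ G) \ G₂)) =
          (1 / al1) * fl D (n / (1 - g)) (Y ∪ G) (S \ G) := by
        rw [TH_mul]
        congr 1
        unfold fl
        exact TH_TH_snd _ _ _ _ (fun e _ => rate1 h1g h2g) _
      have s6 : (1 / al1) * fl D (n / (1 - g)) (Y ∪ G) (S \ G) ≤ al0 / al1 := by
        rw [one_div, ← div_eq_inv_mul]
        exact div_le_div_of_nonneg_right (hY.trans (hal _ hYk)) hal1.le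
      calc _ ≤ _ := s4
        _ = _ := s5
        _ ≤ _ := s6
        _ ≤ _ := le_add_of_nonneg_left (pr_nonneg _)
    · rw [pr_pos hx]
      have : TH (fun _ => g / (1 - g)) (S \ G) (fun G₂ => B G₂ G) ≤
          TH (fun _ => g / (1 - g)) (S \ G) (fun _ => 1) :=
        TH_mono (fun _ => hg') (fun _ => hg'1) _ fun _ _ => pr_le_one _
      rw [TH_const] at this
      exact this.trans (le_add_of_nonneg_right (div_nonneg h00 hal1.le))
  rw [TH_add, TH_const] at s3
  rw [s2] at s1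
  linarith

/-- (d) the union of the pool and the reduced noise is the noise of the level below -/
theorem next (D : Finset E → Prop) (k : ℕ) {g n : ℝ} (hg : 0 ≤ g) (hg2 : 2 * g < 1)
    (hgn : g ≤ n) (hn1 : n ≤ 1 - g) {al1 a : ℝ} (R X : Finset E)
    (h1 : FF D k (g / (1 - g)) (n / (1 - 2 * g)) al1 a R X)
    (h2 : 3 * a < fl D (n / (1 - g)) X R) :
    a ≤ TH (fun _ => g / (1 - g)) R (fun G =>
      pr (ex D k (n / (1 - 2 * g)) (fun _ => al1) X G R ∧
        a < fl D ((n - g) / (1 - 2 * g)) (X ∪ G) (R \ G))) := by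
  have h1g : 0 < 1 - g := by linarith
  have h2g : 0 < 1 - 2 * g := by linarith
  have hg' : 0 ≤ g / (1 - g) := div_nonneg hg h1g.le
  have hg'1 : g / (1 - g) ≤ 1 := by rw [div_le_one h1g]; linarith
  have hn' : 0 ≤ (n - g) / (1 - 2 * g) := div_nonneg (by linarith) h2g.le
  have hn'1 : (n - g) / (1 - 2 * g) ≤ 1 := by rw [div_le_one h2g]; linarith
  have e1 : fl D (n / (1 - g)) X R = TH (fun _ => g / (1 - g)) R (fun G =>
      fl D ((n - g) / (1 - 2 * g)) (X ∪ G) (R \ G)) := by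
    unfold fl
    simp only [union_assoc]
    exact (TH_TH_union _ _ _ _ (fun e _ => rate2 h1g h2g) (fun N => pr (¬ D (X ∪ N)))).symm
  have e2 : TH (fun _ => g / (1 - g)) R (fun G =>
      fl D ((n - g) / (1 - 2 * g)) (X ∪ G) (R \ G)) ≤
      TH (fun _ => g / (1 - g)) R (fun G =>
        (pr (¬ ex D k (n / (1 - 2 * g)) (fun _ => al1) X G R) +
          pr (ex D k (n / (1 - 2 * g)) (fun _ => al1) X G R ∧
          a < fl D ((n - g) / (1 - 2 * g)) (X ∪ G) (R \ G))) + a) := by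
    have ha : 0 ≤ a := le_trans (TH_nonneg (fun _ => hg') (fun _ => hg'1) _
      fun _ _ => pr_nonneg _) h1
    refine TH_mono (fun _ => hg') (fun _ => hg'1) _ fun G _ => ?_
    have hle : fl D ((n - g) / (1 - 2 * g)) (X ∪ G) (R \ G) ≤ 1 := by
      have : fl D ((n - g) / (1 - 2 * g)) (X ∪ G) (R \ G) ≤
          TH (fun _ => (n - g) / (1 - 2 * g)) (R \ G) (fun _ => 1) :=
        TH_mono (fun _ => hn') (fun _ => hn'1) _ fun _ _ => pr_le_one _
      rwa [TH_const] at this
    by_cases hx : ex D k (n / (1 - 2 * g)) (fun _ => al1) X G R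
    · by_cases hy : a < fl D ((n - g) / (1 - 2 * g)) (X ∪ G) (R \ G)
      · have h5 : pr (ex D k (n / (1 - 2 * g)) (fun _ => al1) X G R ∧
            a < fl D ((n - g) / (1 - 2 * g)) (X ∪ G) (R \ G)) = 1 := pr_pos ⟨hx, hy⟩
        rw [h5]
        have := pr_nonneg (¬ ex D k (n / (1 - 2 * g)) (fun _ => al1) X G R)
        linarith
      · have h3 := pr_nonneg (¬ ex D k (n / (1 - 2 * g)) (fun _ => al1) X G R)
        have h4 := pr_nonneg (ex D k (n / (1 - 2 * g)) (fun _ => al1) X G R ∧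
          a < fl D ((n - g) / (1 - 2 * g)) (X ∪ G) (R \ G))
        linarith [not_lt.1 hy]
    · rw [pr_pos hx]
      have h4 := pr_nonneg (ex D k (n / (1 - 2 * g)) (fun _ => al1) X G R ∧
          a < fl D ((n - g) / (1 - 2 * g)) (X ∪ G) (R \ G))
      linarith
  rw [TH_add, TH_add, TH_const] at e2
  unfold FF at h1
  rw [← e1] at e2
  linarith

private theorem sum_ob' (f : Option Bool → ℝ) :
    ∑ l, f l = f none + f (some true) + f (some false) := by
  rw [Fintype.sum_option, Fintype.sum_bool]; ring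

/-- (b) the change of labels -/
theorem jstep (A : Finset E) {p b lam : ℝ} (hp : 0 ≤ p) (hb : 0 ≤ b) (hpb : p + b ≤ 1)
    (hlam : 1 ≤ lam) (hl : lam * p ≤ b) (K : Finset E → Finset E)
    (Ev : Finset E → Finset E → Prop) (F : Finset E → Finset E → Prop)
    (hFm : ∀ R X X', X ⊆ X' → F R X → F R X')
    (hK : ∀ V G, Ev V G → K V ⊆ V ∧ F ((A \ V) \ G) (K V)) (k : ℕ)
    (psi : Finset E → Finset E → ℝ) (hpsi0 : ∀ X R, 0 ≤ psi X R)
    (hpsi : ∀ V G U, Ev V G → U ⊆ K V → U.card ≤ k → F ((A \ V) \ G) (G ∪ U) →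
      1 ≤ psi (G ∪ U) ((A \ V) \ G)) :
    T2 (fun _ => p) (fun _ => b) A (fun V G => pr (Ev V G)) ≤
      1 / lam ^ (k + 1) + T2 (fun _ => p) (fun _ => b) A (fun V G =>
        pr (F ((A \ V) \ G) G) * psi G ((A \ V) \ G)) := by
  classical
  have hw : ∀ e l, 0 ≤ bw2 (fun _ => p) (fun _ => b) A e l := by
    intro e l
    unfold bw2
    split_ifs <;> first | exact hp | exact hb | exact zero_le_one | exact le_rfl | linarith
  have hw1 : ∀ e, ∑ l, bw2 (fun _ => p) (fun _ => b) A e l = 1 := by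
    intro e
    rw [sum_ob']
    by_cases he : e ∈ A
    · simp only [bw2, he, if_true, reduceCtorEq, if_false, Option.some.injEq, Bool.false_eq_true]
      ring
    · simp [bw2, he]
  have hwl : ∀ e, lam * bw2 (fun _ => p) (fun _ => b) A e (some true) ≤
      bw2 (fun _ => p) (fun _ => b) A e (some false) := by
    intro e
    by_cases he : e ∈ A
    · simpa [bw2, he] using hl
    · simp [bw2, he]
  have hR : ∀ ω ω' : E → Option Bool, H379.Sim (some true) (some false) ω ω' →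
      (A \ lset (some true) ω) \ lset (some false) ω =
        (A \ lset (some true) ω') \ lset (some false) ω' := by
    intro ω ω' H
    ext e
    simp only [mem_sdiff, mem_lset]
    rcases H e with h | ⟨h1, h2⟩
    · rw [h]
    · rcases h1 with h1 | h1 <;> rcases h2 with h2 | h2 <;> simp [h1, h2]
  obtain ⟨U, h1, h2, h3⟩ := H379.jstar_label' (some true) (some false) (by simp)
    (bw2 (fun _ => p) (fun _ => b) A) hw lam hlam hwl
    (fun ω X => F ((A \ lset (some true) ω) \ lset (some false) ω) X)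
    (fun ω X X' h hX => hFm _ X X' h hX)
    (fun ω ω' H X hX => by rw [← hR ω ω' H]; exact hX)
    (fun ω => Ev (lset (some true) ω) (lset (some false) ω))
    (fun ω => K (lset (some true) ω))
    (fun ω hE => ⟨fun e he => mem_lset.1 ((hK _ _ hE).1 he), (hK _ _ hE).2⟩)
  let ps : (E → Option Bool) → ℝ := fun ω =>
    psi (lset (some false) ω) ((A \ lset (some true) ω) \ lset (some false) ω)
  have h4 := h2 ps (fun ω => hpsi0 _ _)
  have h5 := h3 (k + 1) hw1
  have hfl : ∀ ω : E → Option Bool, Ev (lset (some true) ω) (lset (some false) ω) →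
      lset (some false) (H379.flip (some false) (U ω) ω) = lset (some false) ω ∪ U ω ∧
      (A \ lset (some true) (H379.flip (some false) (U ω) ω)) \
        lset (some false) (H379.flip (some false) (U ω) ω) =
        (A \ lset (some true) ω) \ lset (some false) ω := by
    intro ω hE
    refine ⟨H379.lab_flip, ?_⟩
    have hU : ∀ e ∈ U ω, ω e = some true := fun e he =>
      mem_lset.1 ((hK _ _ hE).1 ((h1 ω hE).1 he))
    exact (hR _ _ (H379.sim_flip hU)).symm
  have h6 : T2 (fun _ => p) (fun _ => b) A (fun V G => pr (Ev V G)) ≤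
      EX (bw2 (fun _ => p) (fun _ => b) A) (fun ω =>
        (if Ev (lset (some true) ω) (lset (some false) ω) ∧ k + 1 ≤ (U ω).card then 1 else 0) +
        (if Ev (lset (some true) ω) (lset (some false) ω) then
          ps (H379.flip (some false) (U ω) ω) else 0)) := by
    unfold T2
    refine EX_mono hw fun ω => ?_
    beta_reduce
    by_cases hE : Ev (lset (some true) ω) (lset (some false) ω)
    · rw [pr_pos hE, if_pos hE]
      by_cases hc : k + 1 ≤ (U ω).card
      · rw [if_pos ⟨hE, hc⟩]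
        exact le_add_of_nonneg_right (hpsi0 _ _)
      · rw [if_neg (fun h => hc h.2), zero_add]
        simp only [ps]
        rw [(hfl ω hE).2, (hfl ω hE).1]
        exact hpsi _ _ _ hE (h1 ω hE).1 (by omega) (h1 ω hE).2
    · rw [pr_neg hE, if_neg (fun h => hE h.1), if_neg hE, add_zero]
  rw [EX_add] at h6
  have h7 : EX (bw2 (fun _ => p) (fun _ => b) A) (fun ω =>
        (if Ev (lset (some true) ω) (lset (some false) ω) ∧ k + 1 ≤ (U ω).card
          then (1 : ℝ) else 0)) ≤ 1 / lam ^ (k + 1) := by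
    rw [le_div_iff₀ (pow_pos (lt_of_lt_of_le zero_lt_one hlam) _), mul_comm]
    exact h5
  have h8 : EX (bw2 (fun _ => p) (fun _ => b) A) (fun ω =>
      if F ((A \ lset (some true) ω) \ lset (some false) ω) (H379.lab (some false) ω)
        then ps ω else 0) = T2 (fun _ => p) (fun _ => b) A (fun V G =>
        pr (F ((A \ V) \ G) G) * psi G ((A \ V) \ G)) := by
    unfold T2
    refine EX_congr (fun _ _ => rfl) fun ω => ?_
    beta_reduce
    by_cases hF : F ((A \ lset (some true) ω) \ lset (some false) ω) (lset (some false) ω)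
    · rw [pr_pos hF, one_mul]
      exact if_pos hF
    · rw [pr_neg hF, zero_mul]
      exact if_neg hF
  rw [← h8]
  linarith

/-- `T2` as a nested thinning -/
theorem T2_nest (A : Finset E) {p g : ℝ} (f : Finset E → Finset E → ℝ) :
    T2 (fun _ => p) (fun _ => (1 - p) * g) A f =
      TH (fun _ => p) A (fun V => TH (fun _ => g) (A \ V) (fun G => f V G)) :=
  (TH_TH (fun _ => p) (fun _ => g) A f).symm

/-- exchange of the order of `V`, `G₂`, `G` -/
theorem reorder (A : Finset E) {p g b p' : ℝ} (h1g : 0 < 1 - g) (hb : (1 - p) * g = b)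
    (hp' : (1 - b) * p' = p) (B : Finset E → Finset E → Finset E → ℝ) :
    TH (fun _ => p) A (fun V => TH (fun _ => g) (A \ V) (fun G₂ =>
      TH (fun _ => g / (1 - g)) ((A \ V) \ G₂) (fun G => B G₂ (((A \ V) \ G₂) \ G) G))) =
    TH (fun _ => b) A (fun G => TH (fun _ => p') (A \ G) (fun V =>
      TH (fun _ => g / (1 - g)) ((A \ G) \ V) (fun G₂ => B G₂ (((A \ G) \ V) \ G₂) G))) := by
  have s1 : ∀ V : Finset E, TH (fun _ => g) (A \ V) (fun G₂ =>
      TH (fun _ => g / (1 - g)) ((A \ V) \ G₂) (fun G => B G₂ (((A \ V) \ G₂) \ G) G)) =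
      TH (fun _ => g) (A \ V) (fun G => TH (fun _ => g / (1 - g)) ((A \ V) \ G)
        (fun G₂ => B G₂ (((A \ V) \ G₂) \ G) G)) := by
    intro V
    exact TH_TH_swap _ _ _ _ _ (fun e _ => by field_simp) (fun e _ => by field_simp)
      (fun G₂ G => B G₂ (((A \ V) \ G₂) \ G) G)
  simp only [s1]
  rw [TH_TH_swap (fun _ => p) (fun _ => g) (fun _ => b) (fun _ => p') A (fun _ _ => hb)
    (fun _ _ => hp') (fun V G => TH (fun _ => g / (1 - g)) ((A \ V) \ G)
        (fun G₂ => B G₂ (((A \ V) \ G₂) \ G) G))]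
  have s2 : ∀ G V : Finset E, (A \ V) \ G = (A \ G) \ V := by
    intro G V; ext e; simp only [mem_sdiff]; tauto
  have s3 : ∀ G V G₂ : Finset E, ((A \ V) \ G₂) \ G = ((A \ G) \ V) \ G₂ := by
    intro G V G₂; ext e; simp only [mem_sdiff]; tauto
  simp only [s2, s3]

/-- the step of the chain -/
theorem lemL (D : Finset E → Prop) (A Es : Finset E) {p g n lam b p' : ℝ} (hp : 0 ≤ p)
    (hp1 : p ≤ 1) (hg : 0 ≤ g) (hg2 : 2 * g < 1) (hgn : g ≤ n) (hn1 : n ≤ 1 - 2 * g)
    (hb : (1 - p) * g = b) (hp' : (1 - b) * p' = p) (hlam : 1 ≤ lam) (hl : lam * p ≤ b)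
    (k k' : ℕ) (alo aln : ℕ → ℝ) {al0 al1 t t' a q0 rho : ℝ} (ha : 0 < a)
    (haln : ∀ i, i ≤ k' → aln i ≤ al0) (h00 : 0 ≤ al0) (hal1 : 0 < al1)
    (halo : ∀ i, i ≤ k → 3 * a ≤ alo i)
    (Bd : Finset E → Finset E → Prop)
    (hB1 : ∀ V X, V ⊆ A → X ⊆ V → Bd V X →
      TH (fun _ => g) (A \ V) (fun G => pr (¬ ex D k' (n / (1 - g)) aln X G (A \ V))) ≤ t)
    (hB2 : ∀ V X, V ⊆ A → X ⊆ V → Bd V X →
      t' ≤ TH (fun _ => g) (A \ V) (fun G =>
        pr (¬ ex D k (n / (1 - g)) alo (X ∩ Es) G (A \ V))))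
    (hR : TH (fun _ => p) A (fun V => TH (fun _ => g) (A \ V) (fun G =>
      pr (∃ X, X ⊆ V ∧ ex D k (n / (1 - g)) alo X G (A \ V) ∧
        ¬ ex D k (n / (1 - g)) alo (X ∩ Es) G (A \ V)))) ≤ rho)
    (hQ : ∀ G, G ⊆ A → TH (fun _ => p') (A \ G) (fun V =>
      TH (fun _ => g / (1 - g)) ((A \ G) \ V) (fun X =>
        pr ((∃ Y, Y ⊆ X ∧ Y.card ≤ k' ∧
          fl D (n / (1 - 2 * g)) (Y ∪ G) (((A \ G) \ V) \ X) ≤ al1) ∧
          a < fl D ((n - g) / (1 - 2 * g)) (X ∪ G) (((A \ G) \ V) \ X)))) ≤ q0) :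
    (t' - (t + al0 / al1) / a) * TH (fun _ => p) A (fun V => pr (∃ X, X ⊆ V ∧ Bd V X)) ≤
      1 / lam ^ (k + 1) + q0 / a + rho := by
  classical
  have h1g : 0 < 1 - g := by linarith
  have h2g : 0 < 1 - 2 * g := by linarith
  have hg1 : g ≤ 1 := by linarith
  have hb0 : 0 ≤ b := by rw [← hb]; exact mul_nonneg (by linarith) hg
  have hpb : p + b ≤ 1 := by rw [← hb]; nlinarith
  have hb1 : b ≤ 1 := by linarith
  have hg' : 0 ≤ g / (1 - g) := div_nonneg hg h1g.le
  have hg'1 : g / (1 - g) ≤ 1 := by rw [div_le_one h1g]; linarith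
  -- the chosen set
  let K : Finset E → Finset E := fun V => if h : ∃ X, X ⊆ V ∧ Bd V X then h.choose else ∅
  have hKs : ∀ V, (∃ X, X ⊆ V ∧ Bd V X) → K V ⊆ V ∧ Bd V (K V) := by
    intro V h
    have : K V = h.choose := dif_pos h
    rw [this]
    exact h.choose_spec
  let F : Finset E → Finset E → Prop := fun R X =>
    FF D k' (g / (1 - g)) (n / (1 - 2 * g)) al1 a R X
  let Ev : Finset E → Finset E → Prop := fun V G₂ =>
    ((∃ X, X ⊆ V ∧ Bd V X) ∧ ¬ ex D k (n / (1 - g)) alo (K V) G₂ (A \ V)) ∧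
      F ((A \ V) \ G₂) (K V)
  let psi : Finset E → Finset E → ℝ := fun X R => pr (3 * a < fl D (n / (1 - g)) X R)
  have hJ := jstep A hp hb0 hpb hlam hl K Ev F (fun R X X' h => FF_mono hg' hg'1 h)
    (fun V G h => ⟨(hKs V h.1.1).1, h.2⟩) k psi (fun _ _ => pr_nonneg _) (by
      intro V G U hE hU hk hF
      by_contra hlt
      have h3 : ¬ 3 * a < fl D (n / (1 - g)) (G ∪ U) ((A \ V) \ G) := by
        intro h3
        exact hlt (by simp only [psi]; rw [pr_pos h3])
      refine hE.1.2 ⟨U, hU, hk, ?_⟩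
      rw [union_comm]
      exact (not_lt.1 h3).trans (halo _ hk))
  -- the bad event of the noise
  have hbad : T2 (fun _ => p) (fun _ => b) A (fun V G =>
        pr (F ((A \ V) \ G) G) * psi G ((A \ V) \ G)) ≤ q0 / a := by
    rw [le_div_iff₀ ha, mul_comm, ← hb, T2_nest]
    have h1 : a * TH (fun _ => p) A (fun V => TH (fun _ => g) (A \ V) (fun G₂ =>
        pr (F ((A \ V) \ G₂) G₂) * psi G₂ ((A \ V) \ G₂))) ≤
        TH (fun _ => p) A (fun V => TH (fun _ => g) (A \ V) (fun G₂ =>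
          TH (fun _ => g / (1 - g)) ((A \ V) \ G₂) (fun G =>
            pr ((∃ Y, Y ⊆ G₂ ∧ Y.card ≤ k' ∧
              fl D (n / (1 - 2 * g)) (Y ∪ G) (((A \ V) \ G₂) \ G) ≤ al1) ∧
              a < fl D ((n - g) / (1 - 2 * g)) (G₂ ∪ G) (((A \ V) \ G₂) \ G))))) := by
      rw [← TH_mul]
      refine TH_mono (fun _ => hp) (fun _ => hp1) _ fun V _ => ?_
      rw [← TH_mul]
      refine TH_mono (fun _ => hg) (fun _ => hg1) _ fun G₂ _ => ?_
      have hnn : 0 ≤ TH (fun _ => g / (1 - g)) ((A \ V) \ G₂) (fun G =>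
            pr ((∃ Y, Y ⊆ G₂ ∧ Y.card ≤ k' ∧
              fl D (n / (1 - 2 * g)) (Y ∪ G) (((A \ V) \ G₂) \ G) ≤ al1) ∧
              a < fl D ((n - g) / (1 - 2 * g)) (G₂ ∪ G) (((A \ V) \ G₂) \ G))) :=
        TH_nonneg (fun _ => hg') (fun _ => hg'1) _ fun _ _ => pr_nonneg _
      by_cases hF : F ((A \ V) \ G₂) G₂
      · by_cases h3 : 3 * a < fl D (n / (1 - g)) G₂ ((A \ V) \ G₂)
        · have h4 := next D k' hg hg2 hgn (by linarith) ((A \ V) \ G₂) G₂ hF h3
          have h5 : pr (F ((A \ V) \ G₂) G₂) * psi G₂ ((A \ V) \ G₂) = 1 := by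
            simp only [psi]
            rw [pr_pos hF, pr_pos h3, one_mul]
          rw [h5, mul_one]
          exact h4
        · simp only [psi]
          rw [pr_neg h3, mul_zero, mul_zero]
          exact hnn
      · rw [pr_neg hF, zero_mul, mul_zero]
        exact hnn
    refine h1.trans ?_
    rw [reorder A h1g hb hp' (fun G₂ R G => pr ((∃ Y, Y ⊆ G₂ ∧ Y.card ≤ k' ∧
              fl D (n / (1 - 2 * g)) (Y ∪ G) R ≤ al1) ∧
              a < fl D ((n - g) / (1 - 2 * g)) (G₂ ∪ G) R))]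
    have h2 := TH_mono (r := fun _ => b) (fun _ => hb0) (fun _ => hb1) A
      (f := fun G => TH (fun _ => p') (A \ G) (fun V =>
        TH (fun _ => g / (1 - g)) ((A \ G) \ V) (fun X =>
          pr ((∃ Y, Y ⊆ X ∧ Y.card ≤ k' ∧
            fl D (n / (1 - 2 * g)) (Y ∪ G) (((A \ G) \ V) \ X) ≤ al1) ∧
            a < fl D ((n - g) / (1 - 2 * g)) (X ∪ G) (((A \ G) \ V) \ X)))))
      (g := fun _ => q0) (fun G hG => hQ G hG)
    rw [TH_const] at h2
    exact h2
  -- the lower bound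
  have hlow : (t' - (t + al0 / al1) / a) * TH (fun _ => p) A (fun V =>
      pr (∃ X, X ⊆ V ∧ Bd V X)) ≤ T2 (fun _ => p) (fun _ => b) A (fun V G => pr (Ev V G)) +
      rho := by
    refine le_trans ?_ (add_le_add le_rfl hR)
    rw [← hb, T2_nest, ← TH_add, ← TH_mul]
    refine TH_mono (fun _ => hp) (fun _ => hp1) _ fun V hV => ?_
    rw [← TH_add]
    by_cases hX : ∃ X, X ⊆ V ∧ Bd V X
    · rw [pr_pos hX, mul_one]
      obtain ⟨hK1, hK2⟩ := hKs V hX
      have c1 := transfer D k' hg hg2 (by linarith) hn1 aln haln hal1 h00 (A \ V) (K V)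
        (hB1 V (K V) hV hK1 hK2) (a := a)
      have c2 := hB2 V (K V) hV hK1 hK2
      have c3 : TH (fun _ => g) (A \ V) (fun G₂ => pr (¬ F ((A \ V) \ G₂) (K V))) ≤
          (t + al0 / al1) / a := by
        rw [le_div_iff₀ ha, mul_comm]
        exact c1
      have c4 : TH (fun _ => g) (A \ V) (fun G =>
          pr (¬ ex D k (n / (1 - g)) alo (K V ∩ Es) G (A \ V))) ≤
          TH (fun _ => g) (A \ V) (fun G => (pr (Ev V G) +
            pr (∃ X, X ⊆ V ∧ ex D k (n / (1 - g)) alo X G (A \ V) ∧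
              ¬ ex D k (n / (1 - g)) alo (X ∩ Es) G (A \ V))) +
            pr (¬ F ((A \ V) \ G) (K V))) := by
        refine TH_mono (fun _ => hg) (fun _ => hg1) _ fun G _ => ?_
        by_cases d1 : ex D k (n / (1 - g)) alo (K V ∩ Es) G (A \ V)
        · rw [pr_neg (not_not.2 d1)]
          exact add_nonneg (add_nonneg (pr_nonneg _) (pr_nonneg _)) (pr_nonneg _)
        · by_cases d2 : ex D k (n / (1 - g)) alo (K V) G (A \ V)
          · have d3 : pr (∃ X, X ⊆ V ∧ ex D k (n / (1 - g)) alo X G (A \ V) ∧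
              ¬ ex D k (n / (1 - g)) alo (X ∩ Es) G (A \ V)) = 1 :=
              pr_pos ⟨K V, hK1, d2, d1⟩
            rw [d3]
            have := pr_le_one (¬ ex D k (n / (1 - g)) alo (K V ∩ Es) G (A \ V))
            have := pr_nonneg (Ev V G)
            have := pr_nonneg (¬ F ((A \ V) \ G) (K V))
            linarith
          · by_cases d4 : F ((A \ V) \ G) (K V)
            · have d5 : pr (Ev V G) = 1 := pr_pos ⟨⟨hX, d2⟩, d4⟩
              rw [d5]
              have := pr_le_one (¬ ex D k (n / (1 - g)) alo (K V ∩ Es) G (A \ V))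
              have := pr_nonneg (∃ X, X ⊆ V ∧ ex D k (n / (1 - g)) alo X G (A \ V) ∧
                ¬ ex D k (n / (1 - g)) alo (X ∩ Es) G (A \ V))
              have := pr_nonneg (¬ F ((A \ V) \ G) (K V))
              linarith
            · have d5 : pr (¬ F ((A \ V) \ G) (K V)) = 1 := pr_pos d4
              rw [d5]
              have := pr_le_one (¬ ex D k (n / (1 - g)) alo (K V ∩ Es) G (A \ V))
              have := pr_nonneg (∃ X, X ⊆ V ∧ ex D k (n / (1 - g)) alo X G (A \ V) ∧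
                ¬ ex D k (n / (1 - g)) alo (X ∩ Es) G (A \ V))
              have := pr_nonneg (Ev V G)
              linarith
      rw [TH_add _ _ (fun G => pr (Ev V G) +
            pr (∃ X, X ⊆ V ∧ ex D k (n / (1 - g)) alo X G (A \ V) ∧
              ¬ ex D k (n / (1 - g)) alo (X ∩ Es) G (A \ V)))] at c4
      linarith
    · rw [pr_neg hX, mul_zero]
      exact TH_nonneg (fun _ => hg) (fun _ => hg1) _ fun _ _ =>
        add_nonneg (pr_nonneg _) (pr_nonneg _)
  linarith

end Vale.Agent.P331.H787
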